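import Mathlib

namespace Vale.Agent.Results.P079.CompactConvex

open Set

universe u

/-- The fixed point property for nonexpansive maps: for every nonempty norm-closed bounded
convex `C ⊆ X`, every nonexpansive `T : C → C` has a fixed point (the map is given on all of
`X`; only its values on `C` matter). -/
def HasFPP (X : Type u) [NormedAddCommGroup X] [NormedSpace ℝ X] : Prop :=
  ∀ C : Set X, C.Nonempty → IsClosed C → Bornology.IsBounded C → Convex ℝ C →
    ∀ T : X → X, MapsTo T C C → (∀ a ∈ C, ∀ b ∈ C, ‖T a - T b‖ ≤ ‖a - b‖) →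
      ∃ x ∈ C, T x = x

theorem compact_convex_fixed_point {X : Type u} [NormedAddCommGroup X] [NormedSpace ℝ X]
    (C : Set X) (hne : C.Nonempty) (hcomp : IsCompact C) (hconv : Convex ℝ C)
    (T : X → X) (hT : MapsTo T C C) (hnon : ∀ a ∈ C, ∀ b ∈ C, ‖T a - T b‖ ≤ ‖a - b‖) :
    ∃ x ∈ C, T x = x := by
  obtain ⟨x0, hx0⟩ := hne
  -- T is continuous on C
  have hlip : LipschitzOnWith 1 T C := by
    apply LipschitzOnWith.of_dist_le_mul
    intro a ha b hb
    rw [dist_eq_norm, dist_eq_norm, NNReal.coe_one, one_mul]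
    exact hnon a ha b hb
  have hcont : ContinuousOn (fun x => ‖x - T x‖) C :=
    (continuousOn_id.sub hlip.continuousOn).norm
  obtain ⟨xs, hxs, hmin⟩ := hcomp.exists_isMinOn ⟨x0, hx0⟩ hcont
  -- a bound for the diameter
  obtain ⟨R, hR⟩ := hcomp.isBounded.exists_norm_le
  -- approximate fixed points
  have happrox : ∀ n : ℕ, ∃ y ∈ C, ‖y - T y‖ ≤ (2 * R) / (n + 1) := by
    intro n
    have hn : (0 : ℝ) < (n : ℝ) + 1 := by positivity
    set lam : ℝ := (n : ℝ) / ((n : ℝ) + 1) with hlam
    have hlam0 : 0 ≤ lam := by positivity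
    have hlam1 : lam < 1 := by rw [hlam, div_lt_one hn]; linarith
    have h1lam : 1 - lam = 1 / ((n : ℝ) + 1) := by rw [hlam]; field_simp; ring
    let S : X → X := fun x => (1 - lam) • x0 + lam • T x
    have hS : MapsTo S C C := by
      intro x hx
      exact hconv hx0 (hT hx) (by linarith) hlam0 (by ring)
    have hScontr : ContractingWith (Real.toNNReal lam) (hS.restrict S C C) := by
      refine ⟨?_, ?_⟩
      · rw [← NNReal.coe_lt_coe, Real.coe_toNNReal lam hlam0]; exact_mod_cast hlam1
      · apply LipschitzWith.of_dist_le_mul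
        intro a b
        rw [Subtype.dist_eq, Subtype.dist_eq, Real.coe_toNNReal lam hlam0]
        simp only [MapsTo.val_restrict_apply, S]
        rw [dist_eq_norm, dist_eq_norm]
        have h1 : (1 - lam) • x0 + lam • T a - ((1 - lam) • x0 + lam • T b)
            = lam • (T a - T b) := by
          rw [smul_sub]; abel
        rw [h1, norm_smul, Real.norm_of_nonneg hlam0]
        exact mul_le_mul_of_nonneg_left (hnon a a.2 b b.2) hlam0
    obtain ⟨y, hyC, hfix, -⟩ := hScontr.exists_fixedPoint' hcomp.isComplete hS hx0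
      (edist_ne_top _ _)
    refine ⟨y, hyC, ?_⟩
    have hfix' : (1 - lam) • x0 + lam • T y = y := hfix
    have h2 : y - T y = (1 - lam) • (x0 - T y) := by
      have h9 : y - T y = ((1 - lam) • x0 + lam • T y) - T y := by rw [hfix']
      have h10 : (1 - lam) • T y = T y - lam • T y := by rw [sub_smul, one_smul]
      rw [h9, smul_sub, h10]
      abel
    rw [h2, norm_smul, Real.norm_of_nonneg (by linarith), h1lam]
    have h4 : ‖x0 - T y‖ ≤ 2 * R := by
      calc ‖x0 - T y‖ ≤ ‖x0‖ + ‖T y‖ := norm_sub_le _ _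
        _ ≤ R + R := add_le_add (hR x0 hx0) (hR (T y) (hT hyC))
        _ = 2 * R := by ring
    calc 1 / ((n : ℝ) + 1) * ‖x0 - T y‖ ≤ 1 / ((n : ℝ) + 1) * (2 * R) :=
          mul_le_mul_of_nonneg_left h4 (by positivity)
      _ = 2 * R / ((n : ℝ) + 1) := by ring
  -- the minimum of ‖x - T x‖ on C is zero
  have hzero : ‖xs - T xs‖ ≤ 0 := by
    by_contra hpos
    have hpos' : 0 < ‖xs - T xs‖ := not_le.mp hpos
    have hR0 : 0 ≤ R := (norm_nonneg x0).trans (hR x0 hx0)
    obtain ⟨n, hn⟩ := exists_nat_gt ((2 * R) / ‖xs - T xs‖)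
    obtain ⟨y, hyC, hy⟩ := happrox n
    have h5 : ‖xs - T xs‖ ≤ ‖y - T y‖ := hmin hyC
    have h6 : (2 * R) / ((n : ℝ) + 1) < ‖xs - T xs‖ := by
      have hn1 : (0 : ℝ) < (n : ℝ) + 1 := by positivity
      rw [div_lt_iff₀ hn1]
      rw [div_lt_iff₀ hpos'] at hn
      nlinarith
    linarith
  refine ⟨xs, hxs, ?_⟩
  have h7 : ‖xs - T xs‖ = 0 := le_antisymm hzero (norm_nonneg _)
  have h8 : xs - T xs = 0 := norm_eq_zero.mp h7
  exact (sub_eq_zero.mp h8).symm

/-- (1) In every real normed space, every nonexpansive self-map of a nonempty norm-compact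
convex set has a fixed point. (2) Every finite-dimensional real normed space (with any norm)
has the fixed point property for nonexpansive maps. -/
theorem result :
    (∀ (X : Type u) [NormedAddCommGroup X] [NormedSpace ℝ X] (C : Set X), C.Nonempty →
      IsCompact C → Convex ℝ C → ∀ T : X → X, MapsTo T C C →
      (∀ a ∈ C, ∀ b ∈ C, ‖T a - T b‖ ≤ ‖a - b‖) → ∃ x ∈ C, T x = x) ∧
    (∀ (X : Type u) [NormedAddCommGroup X] [NormedSpace ℝ X] [FiniteDimensional ℝ X],
      HasFPP X) := by
  refine ⟨?_, ?_⟩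
  · intro X _ _ C hne hcomp hconv T hT hnon
    exact compact_convex_fixed_point C hne hcomp hconv T hT hnon
  · intro X _ _ _ C hne hclosed hbdd hconv T hT hnon
    have : ProperSpace X := FiniteDimensional.proper_real X
    exact compact_convex_fixed_point C hne (Metric.isCompact_of_isClosed_isBounded hclosed hbdd)
      hconv T hT hnon

end Vale.Agent.Results.P079.CompactConvex
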